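import Vale.Agent.H90.KTV.Defs

/-!
Spectral bridge for the switch-chain development (task A1): a symmetric linear operator on
real functions on a finite type all of whose eigenvalues are `0` or at least `c` satisfies
`c * <f, f> <= <f, A f>` on the orthogonal complement of its kernel, and
`c * <f, A f> <= <A f, A f>` everywhere (for `0 <= c`).
-/

namespace Vale.Agent.H58

open Vale.Agent.H90 Finset

section Spec

variable {Ω : Type*} [Fintype Ω]

/-- The inner product of Euclidean space is the dot product of the underlying functions. -/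
theorem inner_toLp_eq_dot (f g : Ω → ℝ) :
    inner ℝ (WithLp.toLp 2 f : EuclideanSpace ℝ Ω) (WithLp.toLp 2 g) = dot f g := by
  simp [dot, PiLp.inner_apply, mul_comm]

/-- The operator `A` transported to Euclidean space, as a linear map. -/
noncomputable def specMap (A : (Ω → ℝ) → (Ω → ℝ))
    (hadd : ∀ f g, A (f + g) = A f + A g) (hsmul : ∀ (c : ℝ) f, A (c • f) = c • A f) :
    EuclideanSpace ℝ Ω →ₗ[ℝ] EuclideanSpace ℝ Ω where
  toFun v := WithLp.toLp 2 (A (WithLp.ofLp v))
  map_add' v w := by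
    rw [WithLp.ofLp_add, hadd, WithLp.toLp_add]
  map_smul' c v := by
    rw [WithLp.ofLp_smul, hsmul, WithLp.toLp_smul]
    rfl

omit [Fintype Ω] in
theorem specMap_apply (A : (Ω → ℝ) → (Ω → ℝ))
    (hadd : ∀ f g, A (f + g) = A f + A g) (hsmul : ∀ (c : ℝ) f, A (c • f) = c • A f)
    (v : EuclideanSpace ℝ Ω) :
    specMap A hadd hsmul v = WithLp.toLp 2 (A (WithLp.ofLp v)) := rfl

theorem specMap_isSymmetric (A : (Ω → ℝ) → (Ω → ℝ))
    (hadd : ∀ f g, A (f + g) = A f + A g) (hsmul : ∀ (c : ℝ) f, A (c • f) = c • A f)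
    (hsym : ∀ f g, dot f (A g) = dot (A f) g) :
    (specMap A hadd hsmul).IsSymmetric := by
  intro v w
  have hv : v = WithLp.toLp 2 (WithLp.ofLp v) := rfl
  have hw : w = WithLp.toLp 2 (WithLp.ofLp w) := rfl
  rw [specMap_apply, specMap_apply]
  conv_lhs => rw [hw]
  conv_rhs => rw [hv]
  rw [inner_toLp_eq_dot, inner_toLp_eq_dot]
  exact (hsym _ _).symm

/-- Expansion of the three quadratic forms in an orthonormal eigenbasis. -/
theorem spec_expansions {E : Type*} [NormedAddCommGroup E] [InnerProductSpace ℝ E]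
    [FiniteDimensional ℝ E] {T : E →ₗ[ℝ] E} (hT : T.IsSymmetric) (v : E) :
    (inner ℝ v v = ∑ i, (inner ℝ (hT.eigenvectorBasis rfl i) v) ^ 2) ∧
    (inner ℝ v (T v) =
      ∑ i, hT.eigenvalues rfl i * (inner ℝ (hT.eigenvectorBasis rfl i) v) ^ 2) ∧
    (inner ℝ (T v) (T v) =
      ∑ i, (hT.eigenvalues rfl i) ^ 2 * (inner ℝ (hT.eigenvectorBasis rfl i) v) ^ 2) := by
  have hb : ∀ i, inner ℝ (hT.eigenvectorBasis rfl i) (T v) =
      hT.eigenvalues rfl i * inner ℝ (hT.eigenvectorBasis rfl i) v := by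
    intro i
    rw [← hT (hT.eigenvectorBasis rfl i) v, hT.apply_eigenvectorBasis rfl i]
    exact real_inner_smul_left _ _ _
  refine ⟨?_, ?_, ?_⟩
  · rw [← (hT.eigenvectorBasis rfl).sum_inner_mul_inner v v]
    refine Finset.sum_congr rfl fun i _ => ?_
    rw [real_inner_comm v (hT.eigenvectorBasis rfl i)]
    ring
  · rw [← (hT.eigenvectorBasis rfl).sum_inner_mul_inner v (T v)]
    refine Finset.sum_congr rfl fun i _ => ?_
    rw [hb i, real_inner_comm v (hT.eigenvectorBasis rfl i)]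
    ring
  · rw [← (hT.eigenvectorBasis rfl).sum_inner_mul_inner (T v) (T v)]
    refine Finset.sum_congr rfl fun i _ => ?_
    rw [real_inner_comm (hT.eigenvectorBasis rfl i) (T v), hb i]
    ring

/-- The eigenvalue hypothesis, read off on the eigenbasis. -/
theorem spec_eigen_cases (A : (Ω → ℝ) → (Ω → ℝ))
    (hadd : ∀ f g, A (f + g) = A f + A g) (hsmul : ∀ (c : ℝ) f, A (c • f) = c • A f)
    (hsym : ∀ f g, dot f (A g) = dot (A f) g) (c : ℝ)
    (heig : ∀ (μ : ℝ) (f : Ω → ℝ), f ≠ 0 → A f = μ • f → μ = 0 ∨ c ≤ μ)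
    (i : Fin (Module.finrank ℝ (EuclideanSpace ℝ Ω))) :
    (specMap_isSymmetric A hadd hsmul hsym).eigenvalues rfl i = 0 ∨
      c ≤ (specMap_isSymmetric A hadd hsmul hsym).eigenvalues rfl i := by
  set hT := specMap_isSymmetric A hadd hsmul hsym with hTdef
  have hne : hT.eigenvectorBasis rfl i ≠ 0 := (hT.eigenvectorBasis rfl).orthonormal.ne_zero i
  have happ := hT.apply_eigenvectorBasis rfl i
  rw [specMap_apply] at happ
  apply heig _ (WithLp.ofLp (hT.eigenvectorBasis rfl i))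
  · intro h0
    apply hne
    have : hT.eigenvectorBasis rfl i = WithLp.toLp 2 (WithLp.ofLp (hT.eigenvectorBasis rfl i)) :=
      rfl
    rw [this, h0]
    rfl
  · have h2 := congrArg WithLp.ofLp happ
    rw [WithLp.ofLp_smul] at h2
    exact h2

theorem spec_gap (A : (Ω → ℝ) → (Ω → ℝ))
    (hadd : ∀ f g, A (f + g) = A f + A g) (hsmul : ∀ (c : ℝ) f, A (c • f) = c • A f)
    (hsym : ∀ f g, dot f (A g) = dot (A f) g) (c : ℝ)
    (heig : ∀ (μ : ℝ) (f : Ω → ℝ), f ≠ 0 → A f = μ • f → μ = 0 ∨ c ≤ μ)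
    (f : Ω → ℝ) (hf : ∀ g, A g = 0 → dot f g = 0) : c * dot f f ≤ dot f (A f) := by
  set hT := specMap_isSymmetric A hadd hsmul hsym with hTdef
  obtain ⟨h1, h2, -⟩ := spec_expansions hT (WithLp.toLp 2 f)
  rw [inner_toLp_eq_dot] at h1
  rw [specMap_apply, inner_toLp_eq_dot] at h2
  change dot f f = _ at h1
  change dot f (A f) = _ at h2
  rw [h1, h2, Finset.mul_sum]
  refine Finset.sum_le_sum fun i _ => ?_
  rcases spec_eigen_cases A hadd hsmul hsym c heig i with h0 | hc
  · have happ := hT.apply_eigenvectorBasis rfl i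
    rw [h0] at happ
    have hz : A (WithLp.ofLp (hT.eigenvectorBasis rfl i)) = 0 := by
      have h3 := congrArg WithLp.ofLp happ
      rw [specMap_apply] at h3
      simpa using h3
    have hd := hf _ hz
    have hin : inner ℝ (hT.eigenvectorBasis rfl i) (WithLp.toLp 2 f) = 0 := by
      have : hT.eigenvectorBasis rfl i =
          WithLp.toLp 2 (WithLp.ofLp (hT.eigenvectorBasis rfl i)) := rfl
      rw [this, inner_toLp_eq_dot]
      unfold dot at hd ⊢
      rw [← hd]
      exact Finset.sum_congr rfl fun x _ => mul_comm _ _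
    rw [hin, h0]
    simp
  · exact mul_le_mul_of_nonneg_right hc (sq_nonneg _)

theorem spec_sq (A : (Ω → ℝ) → (Ω → ℝ))
    (hadd : ∀ f g, A (f + g) = A f + A g) (hsmul : ∀ (c : ℝ) f, A (c • f) = c • A f)
    (hsym : ∀ f g, dot f (A g) = dot (A f) g) (c : ℝ) (hc : 0 ≤ c)
    (heig : ∀ (μ : ℝ) (f : Ω → ℝ), f ≠ 0 → A f = μ • f → μ = 0 ∨ c ≤ μ)
    (f : Ω → ℝ) : c * dot f (A f) ≤ dot (A f) (A f) := by
  set hT := specMap_isSymmetric A hadd hsmul hsym with hTdef
  obtain ⟨-, h2, h3⟩ := spec_expansions hT (WithLp.toLp 2 f)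
  rw [specMap_apply, inner_toLp_eq_dot] at h2
  rw [specMap_apply, inner_toLp_eq_dot] at h3
  change dot f (A f) = _ at h2
  change dot (A f) (A f) = _ at h3
  rw [h2, h3, Finset.mul_sum]
  refine Finset.sum_le_sum fun i _ => ?_
  rw [← mul_assoc]
  refine mul_le_mul_of_nonneg_right ?_ (sq_nonneg _)
  rcases spec_eigen_cases A hadd hsmul hsym c heig i with h0 | hcm
  · rw [h0]; simp
  · have hpos : 0 ≤ hT.eigenvalues rfl i := le_trans hc hcm
    nlinarith

end Spec

end Vale.Agent.H58
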